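import Mathlib

namespace Vale.Agent.P034

open Finset

variable {X : Type*} [Fintype X] [DecidableEq X]

def wt (g : Finset X → ℝ) (Z : Finset X) : ℝ := ∑ S ∈ Z.powerset, g S

theorem wt_nonneg (g : Finset X → ℝ) (hg : ∀ S, 0 ≤ g S) (Z : Finset X) : 0 ≤ wt g Z :=
  Finset.sum_nonneg (fun S _ => hg S)

theorem wt_mono (g : Finset X → ℝ) (hg : ∀ S, 0 ≤ g S) {Z Z' : Finset X} (h : Z ⊆ Z') :
    wt g Z ≤ wt g Z' :=
  Finset.sum_le_sum_of_subset_of_nonneg (Finset.powerset_mono.2 h) (fun S _ _ => hg S)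

theorem wt_diff (g : Finset X → ℝ) (W Z : Finset X) (h : W ⊆ Z) :
    ∑ S ∈ Z.powerset.filter (fun S => ¬ S ⊆ W), g S = wt g Z - wt g W := by
  have h1 : Z.powerset.filter (fun S => S ⊆ W) = W.powerset := by
    ext S
    simp only [Finset.mem_filter, Finset.mem_powerset]
    constructor
    · exact fun hh => hh.2
    · exact fun hh => ⟨hh.trans h, hh⟩
  have h2 := Finset.sum_filter_add_sum_filter_not Z.powerset (fun S => S ⊆ W) g
  rw [h1] at h2
  unfold wt
  linarith

theorem wt_erase (g : Finset X → ℝ) (Z : Finset X) (x : X) :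
    wt g Z - wt g (Z.erase x) = ∑ S ∈ Z.powerset, (if x ∈ S then g S else 0) := by
  have h := wt_diff g (Z.erase x) Z (Finset.erase_subset _ _)
  rw [← h, Finset.sum_filter]
  apply Finset.sum_congr rfl
  intro S hS
  rw [Finset.mem_powerset] at hS
  by_cases hx : x ∈ S
  · have : ¬ S ⊆ Z.erase x := fun hh => (Finset.notMem_erase x Z) (hh hx)
    simp [hx, this]
  · have : S ⊆ Z.erase x := fun y hy =>
      Finset.mem_erase.2 ⟨fun hyx => hx (hyx ▸ hy), hS hy⟩
    simp [hx, this]

theorem sum_infl (g : Finset X → ℝ) (Z : Finset X) :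
    ∑ x ∈ Z, (wt g Z - wt g (Z.erase x)) = ∑ S ∈ Z.powerset, (S.card : ℝ) * g S := by
  simp_rw [wt_erase]
  rw [Finset.sum_comm]
  apply Finset.sum_congr rfl
  intro S hS
  rw [Finset.mem_powerset] at hS
  rw [← Finset.sum_filter, Finset.sum_const, nsmul_eq_mul]
  congr 2
  congr 1
  ext y
  simp only [Finset.mem_filter]
  exact ⟨fun hh => hh.2, fun hh => ⟨hS hh, hh⟩⟩

theorem sumW (q a : ℝ) (S : Finset X) :
    ∑ W : Finset X, q ^ W.card * a ^ (S \ W).card
      = (q + a) ^ S.card * (q + 1) ^ (Fintype.card X - S.card) := by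
  have h := Finset.prod_add (fun _ : X => q) (fun x : X => if x ∈ S then a else 1) Finset.univ
  have h1 : ∏ x : X, (q + if x ∈ S then a else 1)
      = (q + a) ^ S.card * (q + 1) ^ (Fintype.card X - S.card) := by
    have : ∀ x : X, (q + if x ∈ S then a else 1) = if x ∈ S then (q + a) else (q + 1) := by
      intro x; split_ifs <;> rfl
    simp_rw [this]
    rw [Finset.prod_ite, Finset.prod_const, Finset.prod_const]
    congr 2
    · congr 1; ext y; simp
    · rw [Finset.filter_not, Finset.card_sdiff_of_subset (Finset.filter_subset _ _), Finset.card_univ]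
      congr 2; ext y; simp
  rw [← h1, h, Finset.powerset_univ]
  apply Finset.sum_congr rfl
  intro W _
  rw [Finset.prod_const]
  congr 1
  rw [Finset.prod_ite, Finset.prod_const, Finset.prod_const_one, mul_one]
  congr 2
  ext y
  simp [and_comm]

theorem sumW_le (q a : ℝ) (hq : 0 ≤ q) (ha : 0 ≤ a) (S : Finset X) :
    ∑ W : Finset X, q ^ W.card * a ^ (S \ W).card
      ≤ (q + a) ^ S.card * (q + 1) ^ (Fintype.card X) := by
  rw [sumW]
  apply mul_le_mul_of_nonneg_left _ (by positivity)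
  exact pow_le_pow_right₀ (by linarith) (Nat.sub_le _ _)

theorem sumW_one (q : ℝ) :
    ∑ W : Finset X, q ^ W.card = (q + 1) ^ (Fintype.card X) := by
  have h := sumW q 1 (∅ : Finset X)
  simpa using h

end Vale.Agent.P034
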