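import Mathlib
import Vale.Agent.P034.Wt

set_option linter.unusedSectionVars false

namespace Vale.Agent.P034

open Finset

variable {X : Type*} [Fintype X] [DecidableEq X]

noncomputable def lam (l : ℕ) : ℝ := ((l : ℝ) + 2) / ((l : ℝ) + 1)

noncomputable def th (l : ℕ) (k : ℕ) : ℝ := lam l ^ k / 3

theorem lam_ge_one (l : ℕ) : 1 ≤ lam l := by
  unfold lam
  rw [le_div_iff₀ (by positivity)]
  linarith

theorem th_ge (l k : ℕ) : 1 / 3 ≤ th l k := by
  unfold th
  have := one_le_pow₀ (lam_ge_one l) (n := k)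
  linarith

theorem th_succ (l k : ℕ) : ((l : ℝ) + 2) * th l k = ((l : ℝ) + 1) * th l (k + 1) := by
  unfold th lam
  have h : ((l : ℝ) + 1) ≠ 0 := by positivity
  rw [pow_succ]
  field_simp

theorem th_le_one (l k : ℕ) (hk : k ≤ l) : th l k ≤ 1 := by
  unfold th
  have h1 : lam l ^ k ≤ lam l ^ l := pow_le_pow_right₀ (lam_ge_one l) hk
  have h2 : lam l ≤ Real.exp (1 / ((l : ℝ) + 1)) := by
    have := Real.add_one_le_exp (1 / ((l : ℝ) + 1))
    have h3 : lam l = 1 / ((l : ℝ) + 1) + 1 := by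
      unfold lam
      have h : ((l : ℝ) + 1) ≠ 0 := by positivity
      field_simp
      ring
    rw [h3]; exact this
  have h4 : lam l ^ l ≤ Real.exp 1 := by
    calc lam l ^ l ≤ (Real.exp (1 / ((l : ℝ) + 1))) ^ l :=
          pow_le_pow_left₀ (by linarith [lam_ge_one l]) h2 l
      _ = Real.exp ((l : ℝ) * (1 / ((l : ℝ) + 1))) := by rw [← Real.exp_nat_mul]
      _ ≤ Real.exp 1 := by
          apply Real.exp_le_exp.2
          rw [mul_one_div, div_le_one (by positivity)]
          linarith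
  have h5 := Real.exp_one_lt_d9
  linarith

def QQ (g : Finset X → ℝ) (l : ℕ) (Z T : Finset X) : Prop :=
  T ⊆ Z ∧ th l T.card ≤ wt g Z ∧ ∀ x ∈ T, wt g (Z.erase x) < th l (T.card - 1)

noncomputable def infl (g : Finset X → ℝ) (l : ℕ) (Z : Finset X) : Finset X := by
  classical
  exact Z.filter (fun x => ((l : ℝ) + 2) * wt g (Z.erase x) < ((l : ℝ) + 1) * wt g Z)

theorem QQ_sub_infl (g : Finset X → ℝ) (l : ℕ) (Z T : Finset X) (h : QQ g l Z T) :
    T ⊆ infl g l Z := by
  classical
  intro x hx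
  obtain ⟨h1, h2, h3⟩ := h
  unfold infl
  rw [Finset.mem_filter]
  refine ⟨h1 hx, ?_⟩
  have hc : T.card - 1 + 1 = T.card := Nat.sub_add_cancel (Finset.card_pos.2 ⟨x, hx⟩)
  have h4 := th_succ l (T.card - 1)
  rw [hc] at h4
  have h5 : ((l : ℝ) + 2) * wt g (Z.erase x) < ((l : ℝ) + 2) * th l (T.card - 1) :=
    mul_lt_mul_of_pos_left (h3 x hx) (by positivity)
  have h6 : ((l : ℝ) + 1) * th l T.card ≤ ((l : ℝ) + 1) * wt g Z :=
    mul_le_mul_of_nonneg_left h2 (by positivity)
  linarith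

theorem infl_card (g : Finset X → ℝ) (hg : ∀ S, 0 ≤ g S) (l : ℕ)
    (hsz : ∀ S, g S ≠ 0 → S.card ≤ l) (Z : Finset X) :
    (infl g l Z).card ≤ l * (l + 2) := by
  classical
  have hw := wt_nonneg g hg Z
  rcases hw.eq_or_lt with h0 | hpos
  · have : infl g l Z = ∅ := by
      unfold infl
      rw [Finset.filter_eq_empty_iff]
      intro x _
      rw [← h0]
      have := wt_nonneg g hg (Z.erase x)
      have h2 : 0 ≤ ((l : ℝ) + 2) * wt g (Z.erase x) := by positivity
      linarith
    rw [this]; simp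
  · have h1 : ∑ x ∈ Z, (wt g Z - wt g (Z.erase x)) ≤ (l : ℝ) * wt g Z := by
      rw [sum_infl]
      unfold wt
      rw [Finset.mul_sum]
      apply Finset.sum_le_sum
      intro S _
      by_cases hS : g S = 0
      · simp [hS]
      · exact mul_le_mul_of_nonneg_right (by exact_mod_cast hsz S hS) (hg S)
    have h2 : ∑ x ∈ infl g l Z, (wt g Z - wt g (Z.erase x))
        ≤ ∑ x ∈ Z, (wt g Z - wt g (Z.erase x)) := by
      apply Finset.sum_le_sum_of_subset_of_nonneg
      · unfold infl; exact Finset.filter_subset _ _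
      · intro x _ _
        have := wt_mono g hg (Finset.erase_subset x Z)
        linarith
    have h3 : ∑ x ∈ infl g l Z, (wt g Z / ((l : ℝ) + 2))
        ≤ ∑ x ∈ infl g l Z, (wt g Z - wt g (Z.erase x)) := by
      apply Finset.sum_le_sum
      intro x hx
      unfold infl at hx
      rw [Finset.mem_filter] at hx
      rw [div_le_iff₀ (by positivity)]
      nlinarith [hx.2]
    rw [Finset.sum_const, nsmul_eq_mul] at h3
    have h4 : ((infl g l Z).card : ℝ) * (wt g Z / ((l : ℝ) + 2)) ≤ (l : ℝ) * wt g Z := by linarith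
    have h5 : ((infl g l Z).card : ℝ) ≤ (l : ℝ) * ((l : ℝ) + 2) := by
      have h6 : ((infl g l Z).card : ℝ) * (wt g Z / ((l : ℝ) + 2))
          = (((infl g l Z).card : ℝ) / ((l : ℝ) + 2)) * wt g Z := by ring
      rw [h6] at h4
      have h7 := le_of_mul_le_mul_right h4 hpos
      rwa [div_le_iff₀ (by positivity)] at h7
    exact_mod_cast h5

theorem QQ_count (g : Finset X → ℝ) (hg : ∀ S, 0 ≤ g S) (l : ℕ)
    (hsz : ∀ S, g S ≠ 0 → S.card ≤ l) (Z : Finset X) [DecidablePred (QQ g l Z)] :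
    ((Finset.univ.filter (fun T => QQ g l Z T)).card : ℝ) ≤ 2 ^ (l * (l + 2)) := by
  have h1 : Finset.univ.filter (fun T => QQ g l Z T) ⊆ (infl g l Z).powerset := by
    intro T hT
    rw [Finset.mem_filter] at hT
    exact Finset.mem_powerset.2 (QQ_sub_infl g l Z T hT.2)
  have h2 := Finset.card_le_card h1
  rw [Finset.card_powerset] at h2
  have h3 : 2 ^ (infl g l Z).card ≤ 2 ^ (l * (l + 2)) :=
    Nat.pow_le_pow_right (by norm_num) (infl_card g hg l hsz Z)
  exact_mod_cast h2.trans h3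

theorem exists_frag (g : Finset X → ℝ) (hg : ∀ S, 0 ≤ g S) (l : ℕ) (W H : Finset X)
    (hH : H.card ≤ l) (hw : 1 ≤ wt g H) :
    ∃ T, T ⊆ H ∧ Disjoint T W ∧ QQ g l (W ∪ T) T := by
  classical
  set C := (H \ W).powerset.filter (fun T => th l T.card ≤ wt g (W ∪ T)) with hC
  have hne : C.Nonempty := by
    refine ⟨H \ W, ?_⟩
    rw [hC, Finset.mem_filter]
    refine ⟨Finset.mem_powerset.2 (Finset.Subset.refl _), ?_⟩
    have h1 : th l (H \ W).card ≤ 1 :=
      th_le_one l _ ((Finset.card_le_card Finset.sdiff_subset).trans hH)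
    have h2 : wt g H ≤ wt g (W ∪ H \ W) := by
      apply wt_mono g hg
      rw [Finset.union_sdiff_self_eq_union]
      exact Finset.subset_union_right
    linarith
  obtain ⟨T, hT, hmin⟩ := Finset.exists_min_image C Finset.card hne
  rw [hC, Finset.mem_filter, Finset.mem_powerset] at hT
  have hTH : T ⊆ H := hT.1.trans Finset.sdiff_subset
  have hdis : Disjoint T W := by
    rw [Finset.disjoint_left]
    intro x hx
    exact (Finset.mem_sdiff.1 (hT.1 hx)).2
  refine ⟨T, hTH, hdis, Finset.subset_union_right, hT.2, ?_⟩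
  intro x hx
  have hxW : x ∉ W := Finset.disjoint_left.1 hdis hx
  have he : (W ∪ T).erase x = W ∪ T.erase x := by
    rw [Finset.erase_union_distrib, Finset.erase_eq_of_notMem hxW]
  rw [he]
  by_contra hcon
  push Not at hcon
  have hmem : T.erase x ∈ C := by
    rw [hC, Finset.mem_filter, Finset.mem_powerset]
    refine ⟨(Finset.erase_subset _ _).trans hT.1, ?_⟩
    rw [Finset.card_erase_of_mem hx]
    exact hcon
  have := hmin _ hmem
  rw [Finset.card_erase_of_mem hx] at this
  have hpos : 0 < T.card := Finset.card_pos.2 ⟨x, hx⟩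
  omega

end Vale.Agent.P034
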