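import Mathlib
import Vale.Agent.P034.Count

set_option linter.unusedSectionVars false

namespace Vale.Agent.P034

open Finset
open scoped Classical

variable {X : Type*} [Fintype X] [DecidableEq X]

noncomputable def VW (g : Finset X → ℝ) (l : ℕ) (W : Finset X) : Finset (Finset X) :=
  Finset.univ.filter (fun T => Disjoint T W ∧ QQ g l (W ∪ T) T)

theorem avg3_fix (g : Finset X → ℝ) (l : ℕ) (q : ℝ) (T : Finset X) :
    ∑ W : Finset X, (if Disjoint T W ∧ QQ g l (W ∪ T) T then q ^ W.card * q ^ T.card else 0)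
      = ∑ Z : Finset X, (if QQ g l Z T then q ^ Z.card else 0) := by
  rw [← Finset.sum_filter, ← Finset.sum_filter]
  apply Finset.sum_nbij' (fun W => W ∪ T) (fun Z => Z \ T)
  · intro W hW
    rw [Finset.mem_filter] at hW ⊢
    exact ⟨Finset.mem_univ _, hW.2.2⟩
  · intro Z hZ
    rw [Finset.mem_filter] at hZ ⊢
    refine ⟨Finset.mem_univ _, Finset.disjoint_sdiff, ?_⟩
    rw [Finset.sdiff_union_of_subset hZ.2.1]
    exact hZ.2
  · intro W hW
    rw [Finset.mem_filter] at hW
    exact Finset.union_sdiff_cancel_right hW.2.1.symm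
  · intro Z hZ
    rw [Finset.mem_filter] at hZ
    exact Finset.sdiff_union_of_subset hZ.2.1
  · intro W hW
    rw [Finset.mem_filter] at hW
    rw [Finset.card_union_of_disjoint hW.2.1.symm, pow_add]

theorem avg3 (g : Finset X → ℝ) (hg : ∀ S, 0 ≤ g S) (l : ℕ)
    (hsz : ∀ S, g S ≠ 0 → S.card ≤ l) (q : ℝ) (hq : 0 ≤ q) :
    ∑ W : Finset X, q ^ W.card * ∑ T ∈ VW g l W, q ^ T.card
      ≤ 2 ^ (l * (l + 2)) * (q + 1) ^ (Fintype.card X) := by
  have h1 : ∑ W : Finset X, q ^ W.card * ∑ T ∈ VW g l W, q ^ T.card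
      = ∑ W : Finset X, ∑ T : Finset X,
        (if Disjoint T W ∧ QQ g l (W ∪ T) T then q ^ W.card * q ^ T.card else 0) := by
    apply Finset.sum_congr rfl
    intro W _
    unfold VW
    rw [Finset.mul_sum, Finset.sum_filter]
  rw [h1, Finset.sum_comm]
  simp_rw [avg3_fix]
  rw [Finset.sum_comm]
  have h2 : ∀ Z : Finset X, ∑ T : Finset X, (if QQ g l Z T then q ^ Z.card else 0)
      ≤ 2 ^ (l * (l + 2)) * q ^ Z.card := by
    intro Z
    rw [← Finset.sum_filter, Finset.sum_const, nsmul_eq_mul]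
    exact mul_le_mul_of_nonneg_right (QQ_count g hg l hsz Z) (by positivity)
  calc ∑ Z : Finset X, ∑ T : Finset X, (if QQ g l Z T then q ^ Z.card else 0)
      ≤ ∑ Z : Finset X, 2 ^ (l * (l + 2)) * q ^ Z.card := Finset.sum_le_sum (fun Z _ => h2 Z)
    _ = 2 ^ (l * (l + 2)) * (q + 1) ^ (Fintype.card X) := by
        rw [← Finset.mul_sum, sumW_one]

theorem avg1 (g : Finset X → ℝ) (hg : ∀ S, 0 ≤ g S) (q : ℝ) (hq : 0 ≤ q) :
    ∑ W : Finset X, q ^ W.card * wt g W
      ≤ (∑ S : Finset X, g S * q ^ S.card) * (q + 1) ^ (Fintype.card X) := by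
  have h1 : ∀ W : Finset X, q ^ W.card * wt g W
      = ∑ S : Finset X, g S * (q ^ W.card * (0 : ℝ) ^ (S \ W).card) := by
    intro W
    unfold wt
    rw [Finset.mul_sum]
    rw [← Finset.sum_subset (Finset.subset_univ W.powerset)]
    · apply Finset.sum_congr rfl
      intro S hS
      rw [Finset.mem_powerset] at hS
      rw [Finset.sdiff_eq_empty_iff_subset.2 hS]
      simp [mul_comm]
    · intro S _ hS
      rw [Finset.mem_powerset] at hS
      have : (S \ W).card ≠ 0 := by
        rw [Finset.card_ne_zero, Finset.sdiff_nonempty]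
        exact hS
      rw [zero_pow this]
      simp
  simp_rw [h1]
  rw [Finset.sum_comm, Finset.sum_mul]
  apply Finset.sum_le_sum
  intro S _
  rw [← Finset.mul_sum, mul_assoc]
  apply mul_le_mul_of_nonneg_left _ (hg S)
  have := sumW_le q 0 hq le_rfl S
  simpa using this

theorem avg2 (g : Finset X → ℝ) (hg : ∀ S, 0 ≤ g S) (q b : ℝ) (hq : 0 ≤ q) (hb : 0 ≤ b) :
    ∑ W : Finset X, q ^ W.card *
        ∑ S ∈ Finset.univ.filter (fun S : Finset X => ¬ S ⊆ W), min 1 (b * g S) * q ^ (S \ W).card
      ≤ b * (∑ S : Finset X, g S * (2 * q) ^ S.card) * (q + 1) ^ (Fintype.card X) := by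
  have h1 : ∀ W : Finset X, q ^ W.card *
        ∑ S ∈ Finset.univ.filter (fun S : Finset X => ¬ S ⊆ W), min 1 (b * g S) * q ^ (S \ W).card
      ≤ ∑ S : Finset X, (b * g S) * (q ^ W.card * q ^ (S \ W).card) := by
    intro W
    rw [Finset.mul_sum]
    calc ∑ S ∈ Finset.univ.filter (fun S : Finset X => ¬ S ⊆ W),
          q ^ W.card * (min 1 (b * g S) * q ^ (S \ W).card)
        ≤ ∑ S ∈ Finset.univ.filter (fun S : Finset X => ¬ S ⊆ W),
          (b * g S) * (q ^ W.card * q ^ (S \ W).card) := by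
          apply Finset.sum_le_sum
          intro S _
          have h2 : min 1 (b * g S) ≤ b * g S := min_le_right _ _
          have h3 : 0 ≤ q ^ W.card * q ^ (S \ W).card := by positivity
          calc q ^ W.card * (min 1 (b * g S) * q ^ (S \ W).card)
              = min 1 (b * g S) * (q ^ W.card * q ^ (S \ W).card) := by ring
            _ ≤ _ := mul_le_mul_of_nonneg_right h2 h3
      _ ≤ _ := by
          apply Finset.sum_le_sum_of_subset_of_nonneg (Finset.filter_subset _ _)
          intro S _ _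
          have := hg S
          positivity
  calc _ ≤ ∑ W : Finset X, ∑ S : Finset X, (b * g S) * (q ^ W.card * q ^ (S \ W).card) :=
        Finset.sum_le_sum (fun W _ => h1 W)
    _ = ∑ S : Finset X, (b * g S) * ∑ W : Finset X, (q ^ W.card * q ^ (S \ W).card) := by
        rw [Finset.sum_comm]
        apply Finset.sum_congr rfl
        intro S _
        rw [Finset.mul_sum]
    _ ≤ ∑ S : Finset X, (b * g S) * ((2 * q) ^ S.card * (q + 1) ^ (Fintype.card X)) := by
        apply Finset.sum_le_sum
        intro S _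
        apply mul_le_mul_of_nonneg_left _ (mul_nonneg hb (hg S))
        have := sumW_le q q hq hq S
        rwa [← two_mul] at this
    _ = _ := by
        rw [Finset.mul_sum, Finset.sum_mul]
        apply Finset.sum_congr rfl
        intro S _
        ring

end Vale.Agent.P034
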