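import Mathlib

namespace Vale.Agent.P034

open Finset

theorem derand {ι κ : Type*} [DecidableEq ι] [DecidableEq κ] (hit : ι → κ → Prop)
    [∀ i j, Decidable (hit i j)]
    (c : ι → ℝ) (d : κ → ℝ) (π : ι → ℝ) (h0 : ∀ i, 0 ≤ π i) (h1 : ∀ i, π i ≤ 1)
    (s : Finset ι) : ∀ (tg : Finset κ), ∃ J ⊆ s,
      ∑ i ∈ J, c i + ∑ j ∈ tg.filter (fun j => ∀ i ∈ J, ¬ hit i j), d j
        ≤ ∑ i ∈ s, π i * c i + ∑ j ∈ tg, d j * ∏ i ∈ s.filter (fun i => hit i j), (1 - π i) := by
  induction s using Finset.induction_on with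
  | empty =>
    intro tg
    refine ⟨∅, Finset.Subset.refl _, ?_⟩
    simp
  | insert a s' ha ih =>
    intro tg
    set P : κ → ℝ := fun j => ∏ i ∈ s'.filter (fun i => hit i j), (1 - π i) with hP
    set A0 : ℝ := ∑ i ∈ s', π i * c i + ∑ j ∈ tg, d j * P j with hA0
    set A1 : ℝ := c a + ∑ i ∈ s', π i * c i + ∑ j ∈ tg.filter (fun j => ¬ hit a j), d j * P j with hA1
    have hR : ∑ i ∈ insert a s', π i * c i
        + ∑ j ∈ tg, d j * ∏ i ∈ (insert a s').filter (fun i => hit i j), (1 - π i)
        = π a * A1 + (1 - π a) * A0 := by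
      rw [Finset.sum_insert ha]
      have h2 : ∀ j ∈ tg, d j * ∏ i ∈ (insert a s').filter (fun i => hit i j), (1 - π i)
          = (if hit a j then (1 - π a) * (d j * P j) else d j * P j) := by
        intro j _
        by_cases hj : hit a j
        · rw [Finset.filter_insert, if_pos hj, Finset.prod_insert (by simp [ha]), if_pos hj]
          simp only [hP]; ring
        · rw [Finset.filter_insert, if_neg hj, if_neg hj]
      rw [Finset.sum_congr rfl h2]
      have h3 : ∑ j ∈ tg, (if hit a j then (1 - π a) * (d j * P j) else d j * P j)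
          = (1 - π a) * ∑ j ∈ tg.filter (fun j => hit a j), d j * P j
            + ∑ j ∈ tg.filter (fun j => ¬ hit a j), d j * P j := by
        rw [Finset.sum_ite, Finset.mul_sum]
      have h4 : ∑ j ∈ tg, d j * P j = ∑ j ∈ tg.filter (fun j => hit a j), d j * P j
            + ∑ j ∈ tg.filter (fun j => ¬ hit a j), d j * P j :=
        (Finset.sum_filter_add_sum_filter_not tg _ _).symm
      rw [h3, hA1, hA0, h4]
      ring
    rw [hR]
    by_cases hcase : A0 ≤ A1
    · obtain ⟨J, hJ, hle⟩ := ih tg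
      refine ⟨J, hJ.trans (Finset.subset_insert _ _), hle.trans ?_⟩
      have : π a * A0 ≤ π a * A1 := mul_le_mul_of_nonneg_left hcase (h0 a)
      have h5 : ∑ i ∈ s', π i * c i + ∑ j ∈ tg, d j * ∏ i ∈ s'.filter (fun i => hit i j), (1 - π i) = A0 := rfl
      rw [h5]; nlinarith
    · push Not at hcase
      obtain ⟨J, hJ, hle⟩ := ih (tg.filter (fun j => ¬ hit a j))
      have haJ : a ∉ J := fun h => ha (hJ h)
      refine ⟨insert a J, Finset.insert_subset_insert _ hJ, ?_⟩
      rw [Finset.sum_insert haJ]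
      have h6 : tg.filter (fun j => ∀ i ∈ insert a J, ¬ hit i j)
          = (tg.filter (fun j => ¬ hit a j)).filter (fun j => ∀ i ∈ J, ¬ hit i j) := by
        ext j
        simp only [Finset.mem_filter, Finset.mem_insert, forall_eq_or_imp]
        tauto
      rw [h6]
      have h7 : c a + ∑ i ∈ J, c i + ∑ j ∈ (tg.filter (fun j => ¬ hit a j)).filter (fun j => ∀ i ∈ J, ¬ hit i j), d j ≤ A1 := by
        have : A1 = c a + (∑ i ∈ s', π i * c i + ∑ j ∈ tg.filter (fun j => ¬ hit a j), d j * P j) := by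
          rw [hA1]; ring
        rw [this]
        linarith
      have : (1 - π a) * A1 ≤ (1 - π a) * A0 :=
        mul_le_mul_of_nonneg_left hcase.le (by linarith [h1 a])
      nlinarith

end Vale.Agent.P034
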