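import Mathlib
import Vale.Agent.P034.Avg
import Vale.Agent.P034.Derand

set_option linter.unusedSectionVars false

namespace Vale.Agent.P034

open Finset
open scoped Classical

variable {X : Type*} [Fintype X] [DecidableEq X]

theorem one_sub_min_le (x : ℝ) : 1 - min 1 x ≤ Real.exp (-x) := by
  rcases le_total 1 x with h | h
  · rw [min_eq_left h]
    have := Real.exp_pos (-x)
    linarith
  · rw [min_eq_right h]
    have := Real.add_one_le_exp (-x)
    linarith

theorem prod_bound (g : Finset X → ℝ) (l : ℕ) (b : ℝ) (hb : 0 ≤ b)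
    (W : Finset X) (hW : wt g W ≤ 1 / 6) (T : Finset X) (hT : T ∈ VW g l W) :
    ∏ S ∈ (Finset.univ.filter (fun S : Finset X => ¬ S ⊆ W)).filter (fun S => S ⊆ W ∪ T),
        (1 - min 1 (b * g S)) ≤ Real.exp (-(b / 6)) := by
  unfold VW at hT
  rw [Finset.mem_filter] at hT
  obtain ⟨_, _, _, hth, _⟩ := hT
  have h1 : (Finset.univ.filter (fun S : Finset X => ¬ S ⊆ W)).filter (fun S => S ⊆ W ∪ T)
      = (W ∪ T).powerset.filter (fun S => ¬ S ⊆ W) := by
    ext S
    simp only [Finset.mem_filter, Finset.mem_univ, true_and, Finset.mem_powerset]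
    tauto
  rw [h1]
  calc ∏ S ∈ (W ∪ T).powerset.filter (fun S => ¬ S ⊆ W), (1 - min 1 (b * g S))
      ≤ ∏ S ∈ (W ∪ T).powerset.filter (fun S => ¬ S ⊆ W), Real.exp (-(b * g S)) := by
        apply Finset.prod_le_prod
        · intro S _
          have := min_le_left 1 (b * g S)
          linarith
        · intro S _
          exact one_sub_min_le _
    _ = Real.exp (∑ S ∈ (W ∪ T).powerset.filter (fun S => ¬ S ⊆ W), (-(b * g S))) := by
        rw [Real.exp_sum]
    _ ≤ Real.exp (-(b / 6)) := by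
        apply Real.exp_le_exp.2
        rw [Finset.sum_neg_distrib, ← Finset.mul_sum, wt_diff g W (W ∪ T) Finset.subset_union_left]
        have h2 := th_ge l T.card
        have h3 : 1 / 6 ≤ wt g (W ∪ T) - wt g W := by linarith
        have h4 := mul_le_mul_of_nonneg_left h3 hb
        linarith

theorem round (g : Finset X → ℝ) (hg : ∀ S, 0 ≤ g S) (l : ℕ) (q b : ℝ) (hq : 0 ≤ q)
    (hb : 0 ≤ b) (W : Finset X) (hW : wt g W ≤ 1 / 6) (F : Finset (Finset X))
    (hF : ∀ H ∈ F, H.card ≤ l ∧ 1 ≤ wt g H) :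
    ∃ G : Finset (Finset X), (∀ H ∈ F, ∃ S ∈ G, S ⊆ H) ∧
      ∑ S ∈ G, q ^ S.card ≤
        ∑ S ∈ Finset.univ.filter (fun S : Finset X => ¬ S ⊆ W), min 1 (b * g S) * q ^ (S \ W).card
          + Real.exp (-(b / 6)) * ∑ T ∈ VW g l W, q ^ T.card := by
  obtain ⟨J, hJ, hle⟩ := derand (fun S T : Finset X => S ⊆ W ∪ T)
    (fun S => q ^ (S \ W).card) (fun T => q ^ T.card) (fun S => min 1 (b * g S))
    (fun S => le_min zero_le_one (mul_nonneg hb (hg S))) (fun S => min_le_left _ _)
    (Finset.univ.filter (fun S : Finset X => ¬ S ⊆ W)) (VW g l W)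
  refine ⟨J.image (fun S => S \ W) ∪ (VW g l W).filter (fun T => ∀ S ∈ J, ¬ S ⊆ W ∪ T), ?_, ?_⟩
  · intro H hH
    obtain ⟨T, hTH, hdis, hQ⟩ := exists_frag g hg l W H (hF H hH).1 (hF H hH).2
    have hTV : T ∈ VW g l W := by
      unfold VW
      rw [Finset.mem_filter]
      exact ⟨Finset.mem_univ _, hdis, hQ⟩
    by_cases hun : ∀ S ∈ J, ¬ S ⊆ W ∪ T
    · exact ⟨T, Finset.mem_union_right _ (Finset.mem_filter.2 ⟨hTV, hun⟩), hTH⟩
    · push Not at hun
      obtain ⟨S, hSJ, hS⟩ := hun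
      refine ⟨S \ W, Finset.mem_union_left _ (Finset.mem_image.2 ⟨S, hSJ, rfl⟩), ?_⟩
      intro x hx
      rw [Finset.mem_sdiff] at hx
      rcases Finset.mem_union.1 (hS hx.1) with h | h
      · exact absurd h hx.2
      · exact hTH h
  · have h1 : ∑ S ∈ J.image (fun S => S \ W) ∪ (VW g l W).filter (fun T => ∀ S ∈ J, ¬ S ⊆ W ∪ T),
          q ^ S.card
        ≤ ∑ S ∈ J.image (fun S => S \ W), q ^ S.card
          + ∑ S ∈ (VW g l W).filter (fun T => ∀ S ∈ J, ¬ S ⊆ W ∪ T), q ^ S.card := by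
      have h := Finset.sum_union_inter (s₁ := J.image (fun S => S \ W))
        (s₂ := (VW g l W).filter (fun T => ∀ S ∈ J, ¬ S ⊆ W ∪ T)) (f := fun S => q ^ S.card)
      have h' : 0 ≤ ∑ S ∈ J.image (fun S => S \ W) ∩
          (VW g l W).filter (fun T => ∀ S ∈ J, ¬ S ⊆ W ∪ T), q ^ S.card :=
        Finset.sum_nonneg (fun S _ => by positivity)
      linarith
    have h2 : ∑ S ∈ J.image (fun S => S \ W), q ^ S.card ≤ ∑ S ∈ J, q ^ (S \ W).card :=
      Finset.sum_image_le_of_nonneg (f := fun S : Finset X => q ^ S.card)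
        (fun S _ => by positivity)
    have h3 : ∑ T ∈ VW g l W, q ^ T.card *
          ∏ S ∈ (Finset.univ.filter (fun S : Finset X => ¬ S ⊆ W)).filter (fun S => S ⊆ W ∪ T),
            (1 - min 1 (b * g S))
        ≤ Real.exp (-(b / 6)) * ∑ T ∈ VW g l W, q ^ T.card := by
      rw [Finset.mul_sum]
      apply Finset.sum_le_sum
      intro T hT
      rw [mul_comm]
      exact mul_le_mul_of_nonneg_right (prod_bound g l b hb W hW T hT) (by positivity)
    have h4 := hle.trans (add_le_add_right h3 _)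
    have h5 := h1.trans (add_le_add_left h2 _)
    exact h5.trans (by convert h4)

end Vale.Agent.P034
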