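import Mathlib
import Vale.Agent.P034.Round

set_option linter.unusedSectionVars false

namespace Vale.Agent.P034

open Finset
open scoped Classical

variable {X : Type*} [Fintype X] [DecidableEq X]

theorem exp_bound (M : ℕ) : Real.exp (-((M : ℝ) + 3)) * 2 ^ M ≤ 1 / 8 := by
  have h1 : (2 : ℝ) ≤ Real.exp 1 := by
    have := Real.add_one_le_exp (1 : ℝ)
    linarith
  have h2 : (2 : ℝ) ^ (M + 3) ≤ Real.exp ((M : ℝ) + 3) := by
    have h3 : Real.exp ((M : ℝ) + 3) = Real.exp 1 ^ (M + 3) := by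
      rw [← Real.exp_nat_mul]
      congr 1
      push_cast
      ring
    rw [h3]
    exact pow_le_pow_left₀ (by norm_num) h1 _
  rw [Real.exp_neg, inv_mul_eq_div, div_le_iff₀ (Real.exp_pos _)]
  have h4 : (2 : ℝ) ^ (M + 3) = 8 * 2 ^ M := by rw [pow_add]; ring
  linarith

theorem core (g : Finset X → ℝ) (hg : ∀ S, 0 ≤ g S) (l : ℕ)
    (hsz : ∀ S, g S ≠ 0 → S.card ≤ l) (q : ℝ) (hq : 0 < q) (F : Finset (Finset X))
    (hF : ∀ H ∈ F, H.card ≤ l ∧ 1 ≤ wt g H)
    (hw : 16 * ((l : ℝ) + 2) ^ 2 * ∑ S : Finset X, g S * (2 * q) ^ S.card ≤ 1) :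
    ∃ G : Finset (Finset X), (∀ H ∈ F, ∃ S ∈ G, S ⊆ H) ∧ ∑ S ∈ G, q ^ S.card ≤ 1 / 2 := by
  set M : ℕ := l * (l + 2) with hM
  set b : ℝ := 6 * ((M : ℝ) + 3) with hb
  have hb0 : 0 ≤ b := by positivity
  have hb6 : b / 6 = (M : ℝ) + 3 := by rw [hb]; ring
  set w1 : ℝ := ∑ S : Finset X, g S * q ^ S.card with hw1
  set w2 : ℝ := ∑ S : Finset X, g S * (2 * q) ^ S.card with hw2
  set N : ℝ := (q + 1) ^ (Fintype.card X) with hN
  have hNpos : 0 < N := by positivity
  set A : Finset X → ℝ := fun W =>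
    ∑ S ∈ Finset.univ.filter (fun S : Finset X => ¬ S ⊆ W), min 1 (b * g S) * q ^ (S \ W).card
    with hA
  set B : Finset X → ℝ := fun W => ∑ T ∈ VW g l W, q ^ T.card with hB
  have hA0 : ∀ W, 0 ≤ A W := by
    intro W
    apply Finset.sum_nonneg
    intro S _
    have : 0 ≤ min 1 (b * g S) := le_min zero_le_one (mul_nonneg hb0 (hg S))
    positivity
  have hB0 : ∀ W, 0 ≤ B W := by
    intro W
    apply Finset.sum_nonneg
    intro S _
    positivity
  have hw12 : w1 ≤ w2 := by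
    apply Finset.sum_le_sum
    intro S _
    apply mul_le_mul_of_nonneg_left _ (hg S)
    exact pow_le_pow_left₀ hq.le (by linarith) _
  have hw20 : 0 ≤ w2 := by
    apply Finset.sum_nonneg
    intro S _
    have := hg S
    positivity
  set E : ℝ := 6 * w1 + b * w2 + Real.exp (-(b / 6)) * 2 ^ M with hE
  have hE2 : E ≤ 1 / 2 := by
    have h1 : Real.exp (-(b / 6)) * 2 ^ M ≤ 1 / 8 := by rw [hb6]; exact exp_bound M
    have h2 : (M : ℝ) + 4 ≤ ((l : ℝ) + 2) ^ 2 := by
      rw [hM]; push_cast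
      have : (0 : ℝ) ≤ l := Nat.cast_nonneg l
      nlinarith
    have h3 : 6 * w1 + b * w2 ≤ 6 * (((l : ℝ) + 2) ^ 2) * w2 := by
      have h4 : 6 * w1 + b * w2 ≤ 6 * ((M : ℝ) + 4) * w2 := by
        rw [hb]; nlinarith
      have h5 : 6 * ((M : ℝ) + 4) * w2 ≤ 6 * (((l : ℝ) + 2) ^ 2) * w2 :=
        mul_le_mul_of_nonneg_right (by linarith) hw20
      linarith
    rw [hE]
    nlinarith
  have hsum : ∑ W : Finset X, q ^ W.card * (6 * wt g W + A W + Real.exp (-(b / 6)) * B W)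
      ≤ ∑ W : Finset X, q ^ W.card * E := by
    have e1 := avg1 g hg q hq.le
    have e2 := avg2 g hg q b hq.le hb0
    have e3 := avg3 g hg l hsz q hq.le
    have hexp : 0 ≤ Real.exp (-(b / 6)) := (Real.exp_pos _).le
    have e3' := mul_le_mul_of_nonneg_left e3 hexp
    have hsplit : ∑ W : Finset X, q ^ W.card * (6 * wt g W + A W + Real.exp (-(b / 6)) * B W)
        = 6 * ∑ W : Finset X, q ^ W.card * wt g W + ∑ W : Finset X, q ^ W.card * A W
          + Real.exp (-(b / 6)) * ∑ W : Finset X, q ^ W.card * B W := by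
      rw [Finset.mul_sum, Finset.mul_sum, ← Finset.sum_add_distrib, ← Finset.sum_add_distrib]
      apply Finset.sum_congr rfl
      intro W _
      ring
    have hR : ∑ W : Finset X, q ^ W.card * E = N * E := by
      rw [← Finset.sum_mul, sumW_one]
    rw [hsplit, hR]
    have e1' : ∑ W : Finset X, q ^ W.card * wt g W ≤ w1 * N := e1
    have e2' : ∑ W : Finset X, q ^ W.card * A W ≤ b * w2 * N := e2
    have e3'' : Real.exp (-(b / 6)) * ∑ W : Finset X, q ^ W.card * B W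
        ≤ Real.exp (-(b / 6)) * (2 ^ M * N) := e3'
    have : N * E = 6 * (w1 * N) + b * w2 * N + Real.exp (-(b / 6)) * (2 ^ M * N) := by
      rw [hE]; ring
    rw [this]
    linarith
  obtain ⟨W, _, hWle⟩ := Finset.exists_le_of_sum_le (Finset.univ_nonempty) hsum
  have hqW : 0 < q ^ W.card := by positivity
  have hPhi : 6 * wt g W + A W + Real.exp (-(b / 6)) * B W ≤ E := le_of_mul_le_mul_left hWle hqW
  have hexpB : 0 ≤ Real.exp (-(b / 6)) * B W := mul_nonneg (Real.exp_pos _).le (hB0 W)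
  have hW6 : wt g W ≤ 1 / 6 := by
    have := hA0 W
    linarith
  obtain ⟨G, hcov, hcost⟩ := round g hg l q b hq.le hb0 W hW6 F hF
  refine ⟨G, hcov, hcost.trans ?_⟩
  have := wt_nonneg g hg W
  have h7 : A W + Real.exp (-(b / 6)) * B W ≤ 1 / 2 := by linarith
  exact h7

end Vale.Agent.P034
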