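import Mathlib
import Vale.Agent.P034.Defs
import Vale.Agent.P034.Core

set_option linter.unusedSectionVars false

namespace Vale.Agent.P034

open Finset

variable {X : Type*} [Fintype X] [DecidableEq X]

theorem criterion_gen (F : Finset (Finset X)) (g : Finset X → ℝ) (q : ℝ) (l : ℕ) (hq : 0 ≤ q)
    (hg : ∀ S, 0 ≤ g S)
    (hcert : ∀ H ∈ F, ∃ H' ⊆ H, H'.card ≤ l ∧ 1 ≤ ∑ S ∈ H'.powerset, g S)
    (hw : 16 * ((l : ℝ) + 2) ^ 2 * fracCost g (2 * q) ≤ 1) : PSmall F q := by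
  classical
  set g' : Finset X → ℝ := fun S => if S.card ≤ l then g S else 0 with hg'
  have hg'0 : ∀ S, 0 ≤ g' S := by
    intro S
    simp only [hg']
    split_ifs
    · exact hg S
    · exact le_rfl
  have hg'le : ∀ S, g' S ≤ g S := by
    intro S
    simp only [hg']
    split_ifs
    · exact le_rfl
    · exact hg S
  have hsz : ∀ S, g' S ≠ 0 → S.card ≤ l := by
    intro S hS
    by_contra hcon
    exact hS (by simp only [hg']; rw [if_neg hcon])
  set F' : Finset (Finset X) :=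
    Finset.univ.filter (fun H' => H'.card ≤ l ∧ 1 ≤ ∑ S ∈ H'.powerset, g S) with hF'
  have hF'p : ∀ H ∈ F', H.card ≤ l ∧ 1 ≤ wt g' H := by
    intro H hH
    rw [hF', Finset.mem_filter] at hH
    refine ⟨hH.2.1, ?_⟩
    have : wt g' H = ∑ S ∈ H.powerset, g S := by
      unfold wt
      apply Finset.sum_congr rfl
      intro S hS
      rw [Finset.mem_powerset] at hS
      simp only [hg']
      rw [if_pos ((Finset.card_le_card hS).trans hH.2.1)]
    rw [this]
    exact hH.2.2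
  have hcovF : ∀ G : Finset (Finset X), (∀ H ∈ F', ∃ S ∈ G, S ⊆ H) → Covers G F := by
    intro G hG H hH
    obtain ⟨H', hsub, hcard, hwt⟩ := hcert H hH
    have hmem : H' ∈ F' := by
      rw [hF', Finset.mem_filter]
      exact ⟨Finset.mem_univ _, hcard, hwt⟩
    obtain ⟨S, hS, hSH⟩ := hG H' hmem
    exact ⟨S, hS, hSH.trans hsub⟩
  have hl0 : (0 : ℝ) ≤ l := Nat.cast_nonneg l
  rcases hq.eq_or_lt with h0 | hpos
  · refine ⟨F', hcovF F' (fun H hH => ⟨H, hH, Finset.Subset.refl _⟩), ?_⟩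
    unfold cost
    rw [← h0]
    have hz : ∀ H ∈ F', (0 : ℝ) ^ H.card = 0 := by
      intro H hH
      apply zero_pow
      intro hc
      rw [Finset.card_eq_zero] at hc
      rw [hF', Finset.mem_filter] at hH
      have h1 := hH.2.2
      rw [hc] at h1
      simp only [Finset.powerset_empty, Finset.sum_singleton] at h1
      have h2 : g ∅ ≤ fracCost g (2 * q) := by
        unfold fracCost
        have := Finset.single_le_sum (f := fun S : Finset X => g S * (2 * q) ^ S.card)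
          (fun S _ => mul_nonneg (hg S) (by positivity)) (Finset.mem_univ (∅ : Finset X))
        simpa using this
      have h3 : (1 : ℝ) ≤ fracCost g (2 * q) := h1.trans h2
      nlinarith
    rw [Finset.sum_eq_zero hz]
    norm_num
  · have hw' : 16 * ((l : ℝ) + 2) ^ 2 * ∑ S : Finset X, g' S * (2 * q) ^ S.card ≤ 1 := by
      refine le_trans ?_ hw
      apply mul_le_mul_of_nonneg_left _ (by positivity)
      unfold fracCost
      apply Finset.sum_le_sum
      intro S _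
      exact mul_le_mul_of_nonneg_right (hg'le S) (by positivity)
    obtain ⟨G, hG, hc⟩ := core g' hg'0 l hsz q hpos F' hF'p hw'
    exact ⟨G, hcovF G hG, hc⟩

theorem large_gen (F : Finset (Finset X)) (g : Finset X → ℝ) (p L : ℝ) (t l : ℕ) (hp : 0 ≤ p)
    (hL : 2 ≤ L) (hg : ∀ S, 0 ≤ g S)
    (hcert : ∀ H ∈ F, ∃ H' ⊆ H, H'.card ≤ l ∧ 1 ≤ ∑ S ∈ H'.powerset, g S)
    (hcost : fracCost g p ≤ 1 / 2) (hsupp : ∀ S, g S ≠ 0 → t ≤ S.card)
    (hLt : 8 * ((l : ℝ) + 2) ^ 2 ≤ (L / 2) ^ t) : PSmall F (p / L) := by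
  have hLpos : 0 < L := by linarith
  apply criterion_gen F g (p / L) l (by positivity) hg hcert
  have h1 : fracCost g (2 * (p / L)) ≤ (2 / L) ^ t * fracCost g p := by
    unfold fracCost
    rw [Finset.mul_sum]
    apply Finset.sum_le_sum
    intro S _
    by_cases hS : g S = 0
    · simp [hS]
    · have h2 : (2 * (p / L)) ^ S.card = (2 / L) ^ S.card * p ^ S.card := by
        rw [← mul_pow]; congr 1; ring
      have h3 : (2 / L) ^ S.card ≤ (2 / L) ^ t :=
        pow_le_pow_of_le_one (by positivity) (by rw [div_le_one hLpos]; exact hL) (hsupp S hS)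
      rw [h2]
      calc g S * ((2 / L) ^ S.card * p ^ S.card)
          = (2 / L) ^ S.card * (g S * p ^ S.card) := by ring
        _ ≤ (2 / L) ^ t * (g S * p ^ S.card) :=
          mul_le_mul_of_nonneg_right h3 (mul_nonneg (hg S) (by positivity))
  have h4 : (2 / L) ^ t * (L / 2) ^ t = 1 := by
    rw [← mul_pow]
    have : 2 / L * (L / 2) = 1 := by field_simp
    rw [this, one_pow]
  have h5 : 0 ≤ (2 / L) ^ t := by positivity
  have h6 : fracCost g (2 * (p / L)) ≤ (2 / L) ^ t * (1 / 2) :=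
    h1.trans (mul_le_mul_of_nonneg_left hcost h5)
  have h7 : 16 * ((l : ℝ) + 2) ^ 2 * fracCost g (2 * (p / L))
      ≤ 16 * ((l : ℝ) + 2) ^ 2 * ((2 / L) ^ t * (1 / 2)) :=
    mul_le_mul_of_nonneg_left h6 (by positivity)
  have h8 : 8 * ((l : ℝ) + 2) ^ 2 * (2 / L) ^ t ≤ (L / 2) ^ t * (2 / L) ^ t :=
    mul_le_mul_of_nonneg_right hLt h5
  nlinarith

theorem num_bound (t l : ℕ) (ht : 1 ≤ t) (hl : l ≤ 2 ^ t) :
    8 * ((l : ℝ) + 2) ^ 2 ≤ ((256 : ℝ) / 2) ^ t := by
  have h1 : (l : ℝ) ≤ 2 ^ t := by exact_mod_cast hl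
  have h2 : (2 : ℝ) ≤ 2 ^ t := by
    calc (2 : ℝ) = 2 ^ 1 := by norm_num
      _ ≤ 2 ^ t := pow_le_pow_right₀ (by norm_num) ht
  have h3 : (32 : ℝ) ≤ 32 ^ t := by
    calc (32 : ℝ) = 32 ^ 1 := by norm_num
      _ ≤ 32 ^ t := pow_le_pow_right₀ (by norm_num) ht
  have h4 : ((256 : ℝ) / 2) ^ t = 32 ^ t * (2 ^ t) ^ 2 := by
    rw [← pow_mul, mul_comm t 2, pow_mul, ← mul_pow]
    norm_num
  rw [h4]
  have h5 : (0 : ℝ) ≤ l := Nat.cast_nonneg l
  have h6 : ((l : ℝ) + 2) ^ 2 ≤ (2 * 2 ^ t) ^ 2 := by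
    apply pow_le_pow_left₀ (by positivity)
    linarith
  have h7 : (0 : ℝ) ≤ (2 ^ t) ^ 2 := by positivity
  nlinarith

end Vale.Agent.P034
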