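import Mathlib
import Vale.Agent.P034.Defs
import Vale.Agent.P034.Main

set_option linter.unusedSectionVars false

namespace Vale.Agent.P034

open Finset

variable {X : Type*} [Fintype X] [DecidableEq X]

theorem cost_mono (G : Finset (Finset X)) (q q' : ℝ) (h0 : 0 ≤ q') (h : q' ≤ q) :
    cost G q' ≤ cost G q := by
  unfold cost
  exact Finset.sum_le_sum (fun S _ => pow_le_pow_left₀ h0 h _)

theorem cost_half (G : Finset (Finset X)) (q : ℝ) (h0 : 0 ≤ q) (h : cost G q ≤ 1 / 2) :
    cost G (q / 2) ≤ 1 / 4 := by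
  have hne : ∀ S ∈ G, S.card ≠ 0 := by
    intro S hS hc
    have h1 : q ^ S.card ≤ cost G q := by
      unfold cost
      exact Finset.single_le_sum (f := fun S : Finset X => q ^ S.card)
        (fun S _ => by positivity) hS
    rw [hc, pow_zero] at h1
    linarith
  have h2 : cost G (q / 2) ≤ (1 / 2) * cost G q := by
    unfold cost
    rw [Finset.mul_sum]
    apply Finset.sum_le_sum
    intro S hS
    rw [div_pow, div_eq_mul_inv, mul_comm]
    apply mul_le_mul_of_nonneg_right _ (by positivity)
    have h3 : (2 : ℝ) ≤ 2 ^ S.card := by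
      calc (2 : ℝ) = 2 ^ 1 := by norm_num
        _ ≤ 2 ^ S.card := pow_le_pow_right₀ (by norm_num) (Nat.pos_of_ne_zero (hne S hS))
    rw [one_div]
    exact inv_anti₀ (by norm_num) h3
  linarith

theorem one_le_sum_min {ι : Type*} (s : Finset ι) (a : ι → ℝ) (ha : ∀ i ∈ s, 0 ≤ a i)
    (h : 1 ≤ ∑ i ∈ s, a i) : 1 ≤ ∑ i ∈ s, min 1 (a i) := by
  by_cases hbig : ∃ i ∈ s, 1 ≤ a i
  · obtain ⟨i, hi, hai⟩ := hbig
    have h1 : min 1 (a i) ≤ ∑ j ∈ s, min 1 (a j) :=
      Finset.single_le_sum (f := fun j => min 1 (a j))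
        (fun j hj => le_min zero_le_one (ha j hj)) hi
    rw [min_eq_left hai] at h1
    exact h1
  · push Not at hbig
    have h1 : ∑ i ∈ s, min 1 (a i) = ∑ i ∈ s, a i :=
      Finset.sum_congr rfl (fun i hi => min_eq_right (hbig i hi).le)
    rw [h1]
    exact h

theorem quarter_pow (p : ℝ) (hp : 0 ≤ p) (k : ℕ) (hk : 1 ≤ k) :
    4 * (p / 4) ^ k ≤ p ^ k := by
  rw [div_pow]
  have h3 : (4 : ℝ) ≤ 4 ^ k := by
    calc (4 : ℝ) = 4 ^ 1 := by norm_num
      _ ≤ 4 ^ k := pow_le_pow_right₀ (by norm_num) hk
  have h4 : (0 : ℝ) < 4 ^ k := by positivity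
  rw [mul_div_assoc', div_le_iff₀ h4]
  have h5 : 0 ≤ p ^ k := by positivity
  nlinarith

theorem reduction (F : Finset (Finset X)) (g : Finset X → ℝ) (p Lt : ℝ) (t l : ℕ) (hp : 0 ≤ p)
    (hg : IsFracCover g F) (hcost : fracCost g p ≤ 1 / 2)
    (hmin : ∀ H ∈ F, ∃ H' ∈ F, H' ⊆ H ∧ H'.card ≤ l)
    (ht : 1 ≤ t) (hl : l ≤ 2 ^ t) (hLt : 1 ≤ Lt)
    (hyp : ∀ (F' : Finset (Finset X)) (g' : Finset X → ℝ) (p' : ℝ), 0 ≤ p' →
      IsFracCover g' F' → fracCost g' p' ≤ 1 / 2 → (∀ S, g' S ≠ 0 → S.card < t) →
      PSmall F' (p' / Lt)) :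
    PSmall F (p / (8 * max 256 Lt)) := by
  classical
  have hg0 : ∀ S, 0 ≤ g S := fun S => (hg.1 S).1
  set gL : Finset X → ℝ := fun S => if t ≤ S.card then 4 * g S else 0 with hgL
  set gS : Finset X → ℝ := fun S => if 1 ≤ S.card ∧ S.card < t then min 1 (4 * g S) else 0 with hgS
  have hempty : g ∅ ≤ 1 / 2 := by
    refine le_trans ?_ hcost
    unfold fracCost
    have := Finset.single_le_sum (f := fun S : Finset X => g S * p ^ S.card)
      (fun S _ => mul_nonneg (hg0 S) (by positivity)) (Finset.mem_univ (∅ : Finset X))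
    simpa using this
  have hsplit : ∀ H : Finset X, ∑ S ∈ H.powerset, g S
      = g ∅ + ∑ S ∈ H.powerset, (if 1 ≤ S.card ∧ S.card < t then g S else 0)
        + ∑ S ∈ H.powerset, (if t ≤ S.card then g S else 0) := by
    intro H
    have h1 : g ∅ = ∑ S ∈ H.powerset, (if S.card = 0 then g S else 0) := by
      rw [Finset.sum_eq_single (∅ : Finset X)]
      · simp
      · intro S _ hS
        rw [if_neg]
        rwa [Finset.card_eq_zero]
      · intro hh
        exact absurd (Finset.empty_mem_powerset H) hh
    rw [h1, ← Finset.sum_add_distrib, ← Finset.sum_add_distrib]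
    apply Finset.sum_congr rfl
    intro S _
    by_cases c0 : S.card = 0
    · have c1 : ¬ (1 ≤ S.card ∧ S.card < t) := by omega
      have c2 : ¬ t ≤ S.card := by omega
      simp [c0, c2]
      intro hh
      omega
    · by_cases c2 : t ≤ S.card
      · have c1 : ¬ (1 ≤ S.card ∧ S.card < t) := by omega
        simp [c0, c1, c2]
      · have c1 : (1 ≤ S.card ∧ S.card < t) := by omega
        simp [c0, c1, c2]
  set FL : Finset (Finset X) := F.filter (fun H => H.card ≤ l ∧
    1 / 4 ≤ ∑ S ∈ H.powerset, (if t ≤ S.card then g S else 0)) with hFL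
  set FS : Finset (Finset X) := F.filter (fun H =>
    1 / 4 ≤ ∑ S ∈ H.powerset, (if 1 ≤ S.card ∧ S.card < t then g S else 0)) with hFS
  have hLsmall : PSmall FL (p / 4 / 256) := by
    apply large_gen FL gL (p / 4) 256 t l (by positivity) (by norm_num)
    · intro S
      simp only [hgL]
      split_ifs
      · have := hg0 S
        positivity
      · exact le_rfl
    · intro H hH
      rw [hFL, Finset.mem_filter] at hH
      refine ⟨H, Finset.Subset.refl _, hH.2.1, ?_⟩
      have h1 : ∑ S ∈ H.powerset, gL S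
          = 4 * ∑ S ∈ H.powerset, (if t ≤ S.card then g S else 0) := by
        rw [Finset.mul_sum]
        apply Finset.sum_congr rfl
        intro S _
        simp only [hgL]
        split_ifs <;> simp
      rw [h1]
      linarith [hH.2.2]
    · refine le_trans ?_ hcost
      unfold fracCost
      apply Finset.sum_le_sum
      intro S _
      simp only [hgL]
      split_ifs with hc
      · have := quarter_pow p hp S.card (ht.trans hc)
        have h2 := mul_le_mul_of_nonneg_left this (hg0 S)
        linarith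
      · rw [zero_mul]
        exact mul_nonneg (hg0 S) (by positivity)
    · intro S hS
      by_contra hc
      exact hS (by simp only [hgL]; rw [if_neg hc])
    · exact num_bound t l ht hl
  have hSsmall : PSmall FS (p / 4 / Lt) := by
    apply hyp FS gS (p / 4) (by positivity)
    · refine ⟨?_, ?_⟩
      · intro S
        simp only [hgS]
        split_ifs
        · exact ⟨le_min zero_le_one (by have := hg0 S; positivity), min_le_left _ _⟩
        · exact ⟨le_rfl, zero_le_one⟩
      · intro H hH
        rw [hFS, Finset.mem_filter] at hH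
        have h1 : ∑ S ∈ H.powerset, gS S
            = ∑ S ∈ H.powerset, min 1 (if 1 ≤ S.card ∧ S.card < t then 4 * g S else 0) := by
          apply Finset.sum_congr rfl
          intro S _
          simp only [hgS]
          split_ifs <;> simp
        rw [h1]
        apply one_le_sum_min
        · intro S _
          split_ifs
          · have := hg0 S
            positivity
          · exact le_rfl
        · have h2 : ∑ S ∈ H.powerset, (if 1 ≤ S.card ∧ S.card < t then 4 * g S else 0)
              = 4 * ∑ S ∈ H.powerset, (if 1 ≤ S.card ∧ S.card < t then g S else 0) := by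
            rw [Finset.mul_sum]
            apply Finset.sum_congr rfl
            intro S _
            split_ifs <;> simp
          rw [h2]
          linarith [hH.2]
    · refine le_trans ?_ hcost
      unfold fracCost
      apply Finset.sum_le_sum
      intro S _
      simp only [hgS]
      split_ifs with hc
      · have h1 := quarter_pow p hp S.card hc.1
        have h2 := mul_le_mul_of_nonneg_left h1 (hg0 S)
        have h3 : min 1 (4 * g S) ≤ 4 * g S := min_le_right _ _
        have h4 : min 1 (4 * g S) * (p / 4) ^ S.card ≤ 4 * g S * (p / 4) ^ S.card :=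
          mul_le_mul_of_nonneg_right h3 (by positivity)
        linarith
      · rw [zero_mul]
        exact mul_nonneg (hg0 S) (by positivity)
    · intro S hS
      by_contra hc
      apply hS
      simp only [hgS]
      rw [if_neg]
      intro hh
      exact hc hh.2
  obtain ⟨Ga, hGac, hGacost⟩ := hLsmall
  obtain ⟨Gb, hGbc, hGbcost⟩ := hSsmall
  have hLtpos : 0 < Lt := by linarith
  have hmaxpos : 0 < max 256 Lt := lt_of_lt_of_le (by norm_num) (le_max_left _ _)
  set q : ℝ := p / (8 * max 256 Lt) with hq
  have hq0 : 0 ≤ q := by positivity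
  have hqL : q ≤ p / 4 / 256 / 2 := by
    rw [hq, div_div, div_div]
    apply div_le_div_of_nonneg_left hp (by norm_num)
    have := le_max_left (256 : ℝ) Lt
    linarith
  have hqS : q ≤ p / 4 / Lt / 2 := by
    rw [hq, div_div, div_div]
    apply div_le_div_of_nonneg_left hp (by positivity)
    have := le_max_right (256 : ℝ) Lt
    linarith
  have c1 : cost Ga q ≤ 1 / 4 :=
    (cost_mono Ga _ q hq0 hqL).trans (cost_half Ga _ (by positivity) hGacost)
  have c2 : cost Gb q ≤ 1 / 4 :=
    (cost_mono Gb _ q hq0 hqS).trans (cost_half Gb _ (by positivity) hGbcost)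
  refine ⟨Ga ∪ Gb, ?_, ?_⟩
  · intro H hH
    obtain ⟨H', hH', hsub, hcard⟩ := hmin H hH
    have h1 := hg.2 H' hH'
    rw [hsplit H'] at h1
    by_cases hc : 1 / 4 ≤ ∑ S ∈ H'.powerset, (if t ≤ S.card then g S else 0)
    · have hmem : H' ∈ FL := by
        rw [hFL, Finset.mem_filter]
        exact ⟨hH', hcard, hc⟩
      obtain ⟨S, hS, hSH⟩ := hGac H' hmem
      exact ⟨S, Finset.mem_union_left _ hS, hSH.trans hsub⟩
    · have hmem : H' ∈ FS := by
        rw [hFS, Finset.mem_filter]
        refine ⟨hH', ?_⟩
        push Not at hc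
        linarith
      obtain ⟨S, hS, hSH⟩ := hGbc H' hmem
      exact ⟨S, Finset.mem_union_right _ hS, hSH.trans hsub⟩
  · have h := Finset.sum_union_inter (s₁ := Ga) (s₂ := Gb) (f := fun S : Finset X => q ^ S.card)
    have h' : 0 ≤ ∑ S ∈ Ga ∩ Gb, q ^ S.card := Finset.sum_nonneg (fun S _ => by positivity)
    unfold cost at c1 c2 ⊢
    linarith

end Vale.Agent.P034
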